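import Vale.Agent.Lib.P154.Neg.LP.B4925.D

/-!
Part of the computations of a certificate for a restricted range of `theta`.
-/

namespace Vale.Agent.Lib.P154.Neg.B4925

open Vale.Agent.Lib.P154.Neg.Kron Vale.Agent.Lib.P154.Neg Vale.Agent.Lib.P154.Neg.Cst

theorem ctY1_15 : checkCT C.A C.eY1 (c21 (c12 (c20 (MC C.a0 C.b0 C.c0)))) tY1_15 = true := by decide +kernel

theorem ctY1_16 : checkCT C.A C.eY1 (c21 (c20 (MC C.a0 C.b0 C.c0))) tY1_16 = true := by decide +kernel

theorem ctY2_0 : checkCT C.A C.eY2 (MC C.a0 C.b0 C.c0) tY2_0 = true := by decide +kernel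

end Vale.Agent.Lib.P154.Neg.B4925
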