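import Vale.Agent.Lib.P154.Neg.LP.B4925.D

/-!
Part of the computations of a certificate for a restricted range of `theta`.
-/

namespace Vale.Agent.Lib.P154.Neg.B4925

open Vale.Agent.Lib.P154.Neg.Kron Vale.Agent.Lib.P154.Neg Vale.Agent.Lib.P154.Neg.Cst

theorem ctQ3_6 : checkTree 4 (eQ3t C) btQ3_4r tQ3_6 = true := by decide +kernel

theorem ctQ3_7 : checkTree 4 (eQ3t C) btQ3_3r tQ3_7 = true := by decide +kernel

theorem ctQ3_10 : checkTree 4 (eQ3t C) btQ3_9l tQ3_10 = true := by decide +kernel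

theorem ctQ3_11 : checkTree 4 (eQ3t C) btQ3_9r tQ3_11 = true := by decide +kernel

end Vale.Agent.Lib.P154.Neg.B4925
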